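import Vale.Agent.P154.Hel.Burn.Data.S026

/-!
Data of the burn-in at `(d, λ) = (4, -1/2)`: generated by a program (see notes/P154_h12_burn_gen).
-/

namespace Vale.Agent.P154.Hel.Burn.Data

theorem step_027 : checkStep cfg tabs Y027 Y028 = true := by decide +kernel

end Vale.Agent.P154.Hel.Burn.Data
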